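import Vale.Agent.P103.Main

/-!
A `C¹` self-map of a closed manifold (namely `S² × S¹ × S⁵`) with zero topological entropy whose
action on `H₂(M; ℝ)` has `2` in its spectrum: Shub's entropy conjecture fails for `C¹` maps.
-/

open CategoryTheory AlgebraicTopology
open scoped Manifold ContDiff

/-- The linear map induced by `f` on the `k`-th singular homology with real coefficients. -/
noncomputable def Vale.Agent.Results.P103.Counter.homologyMap {M : Type} [TopologicalSpace M]
    (k : ℕ) (f : C(M, M)) : Module.End ℝ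
      (((singularHomologyFunctor (ModuleCat ℝ) k).obj (ModuleCat.of ℝ ℝ)).obj (TopCat.of M)) :=
  (((singularHomologyFunctor (ModuleCat ℝ) k).obj (ModuleCat.of ℝ ℝ)).map (TopCat.ofHom f)).hom

open Vale.Agent.Results.P103.Counter in
theorem Vale.Agent.Results.P103.Counter.result :
    ∃ (E : Type) (_ : NormedAddCommGroup E) (_ : NormedSpace ℝ E) (_ : FiniteDimensional ℝ E)
      (H : Type) (_ : TopologicalSpace H) (I : ModelWithCorners ℝ E H) (_ : I.Boundaryless)
      (M : Type) (_ : MetricSpace M) (_ : Nonempty M) (_ : CompactSpace M)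
      (_ : ChartedSpace H M) (_ : IsManifold I ∞ M) (f : C(M, M)),
      ContMDiff I I 1 f ∧ Dynamics.coverEntropy f Set.univ = 0 ∧
        (2 : ℝ) ∈ spectrum ℝ (homologyMap 2 f) ∧
        Dynamics.coverEntropy f Set.univ < ENNReal.log (spectralRadius ℝ (homologyMap 2 f)) := by
  refine ⟨_, _, _, inferInstance, _, _, Vale.Agent.P103.IM, inferInstance, Vale.Agent.P103.M,
    inferInstance, ⟨Vale.Agent.P103.pt 1 (one_pow 2)⟩, inferInstance, inferInstance,
    inferInstance, Vale.Agent.P103.ffC, Vale.Agent.P103.cm_ff, Vale.Agent.P103.entropy_ff,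
    Vale.Agent.P103.spec_ff, Vale.Agent.P103.entropy_ff.trans_lt ?_⟩
  rw [ENNReal.zero_lt_log_iff]
  refine lt_of_lt_of_le ?_ (le_iSup₂_of_le (2 : ℝ) Vale.Agent.P103.spec_ff le_rfl)
  norm_num
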